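import Vale.Agent.P105.Ex

open Vale.Agent.P105

theorem Vale.Agent.Results.P105.QuarticSalem.result :
    (∃ lam : ℝ, 1 / 2 < lam ∧ lam < 1 ∧ lam ^ 4 - lam ^ 3 - lam ^ 2 - lam + 1 = 0 ∧
      ¬ IsPisot lam⁻¹ ∧ IsSingular (bern lam)) ∧
    (∃ lam : ℝ, 1 / 2 < lam ∧ lam < 1 ∧ lam ^ 4 - 2 * lam ^ 3 + lam ^ 2 - 2 * lam + 1 = 0 ∧
      ¬ IsPisot lam⁻¹ ∧ IsSingular (bern lam)) ∧
    (∀ lam : ℝ, 0 < lam → lam < 1 → IsSalem lam⁻¹ → (minpoly ℚ lam⁻¹).natDegree = 4 →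
      ¬ IsPisot lam⁻¹ ∧ IsSingular (bern lam)) := by
  refine ⟨?_, ?_, fun lam h0 h1 hS h4 => ⟨not_pisot hS, sing_salem h0 h1 hS h4⟩⟩
  · obtain ⟨lam, a, b, c⟩ := root_ex (fun x => x ^ 4 - x ^ 3 - x ^ 2 - x + 1) (by fun_prop)
      (by norm_num) (by norm_num)
    have h0 : 0 < lam := by linarith
    obtain ⟨hS, h4⟩ := salem_of irr1 (by norm_num) h0 b (by push_cast; linear_combination c)
    exact ⟨lam, a, b, c, not_pisot hS, sing_salem h0 b hS h4⟩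
  · obtain ⟨lam, a, b, c⟩ := root_ex (fun x => x ^ 4 - 2 * x ^ 3 + x ^ 2 - 2 * x + 1) (by fun_prop)
      (by norm_num) (by norm_num)
    have h0 : 0 < lam := by linarith
    obtain ⟨hS, h4⟩ := salem_of irr2 (by norm_num) h0 b (by push_cast; linear_combination c)
    exact ⟨lam, a, b, c, not_pisot hS, sing_salem h0 b hS h4⟩
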